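import Vale.Agent.P154.AOf
import Vale.Agent.P154.J.C3
import Vale.Agent.P154.J.O3a

/-! Assembly of job 3. -/

namespace Vale.Agent.P154

theorem j3O : OutGood w3 0 1048576 0 1048576 6597069766656 16492674416640 := (OutGood.p
    (c := 1048576) (OutGood.q (c := 1048576) (OutGood.l (kt_of w3_ok j3o0.down
    (by decide +kernel)) (kt_of w3_ok j3o1.down (by decide +kernel))) (OutGood.q (c := 524288)
    (OutGood.p (c := 524288) (kt_of w3_ok j3o2.down (by decide +kernel)) (kt_of w3_ok j3o3.down
    (by decide +kernel)) rfl rfl) (OutGood.p (c := 524288) (kt_of w3_ok j3o4.down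
    (by decide +kernel)) (OutGood.q (c := 262144) (kt_of w3_ok j3o5.down (by decide +kernel))
    (kt_of w3_ok j3o6.down (by decide +kernel)) rfl rfl) rfl rfl) rfl rfl) rfl rfl) (OutGood.q
    (c := 1048576) (OutGood.q (c := 524288) (kt_of w3_ok j3o7.down (by decide +kernel)) (kt_of
    w3_ok j3o8.down (by decide +kernel)) rfl rfl) (OutGood.q (c := 524288) (OutGood.q
    (c := 262144) (OutGood.p (c := 524288) (kt_of w3_ok j3o9.down (by decide +kernel)) (kt_of
    w3_ok j3o10.down (by decide +kernel)) rfl rfl) (OutGood.p (c := 524288) (kt_of w3_ok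
    j3o11.down (by decide +kernel)) (OutGood.q (c := 131072) (kt_of w3_ok j3o12.down
    (by decide +kernel)) (kt_of w3_ok j3o13.down (by decide +kernel)) rfl rfl) rfl rfl) rfl rfl)
    (OutGood.p (c := 524288) (OutGood.q (c := 262144) (OutGood.p (c := 262144) (kt_of w3_ok
    j3o14.down (by decide +kernel)) (kt_of w3_ok j3o15.down (by decide +kernel)) rfl rfl)
    (OutGood.p (c := 262144) (kt_of w3_ok j3o16.down (by decide +kernel)) (kt_of w3_ok j3o17.down
    (by decide +kernel)) rfl rfl) rfl rfl) (OutGood.q (c := 262144) (OutGood.p (c := 262144)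
    (kt_of w3_ok j3o18.down (by decide +kernel)) (OutGood.q (c := 131072) (kt_of w3_ok j3o19.down
    (by decide +kernel)) (kt_of w3_ok j3o20.down (by decide +kernel)) rfl rfl) rfl rfl) (OutGood.p
    (c := 262144) (OutGood.q (c := 131072) (kt_of w3_ok j3o21.down (by decide +kernel)) (kt_of
    w3_ok j3o22.down (by decide +kernel)) rfl rfl) (OutGood.q (c := 131072) (OutGood.p
    (c := 131072) (kt_of w3_ok j3o23.down (by decide +kernel)) (kt_of w3_ok j3o24.down
    (by decide +kernel)) rfl rfl) (kt_of w3_ok j3o25.down (by decide +kernel)) rfl rfl) rfl rfl)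
    rfl rfl) rfl rfl) rfl rfl) rfl rfl) rfl rfl)

theorem j3G : JobG w3 1967202304 24 60 := jobG_of w3_sm j3O (cen1_of j3a0_0.down
    (by decide +kernel)) (cen1_of j3b0_0.down (by decide +kernel)) (cen2_of w3_sm j3c0.down
    (by decide +kernel)) (by decide +kernel)

theorem j3P0 : JobP 24 60 0 0 := jobP_of j3G _ j3t0.down
theorem j3P1 : JobP 24 60 5 5 := jobP_of j3G _ j3t1.down

end Vale.Agent.P154
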