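import Vale.Agent.P154.AOf
import Vale.Agent.P154.J.C4
import Vale.Agent.P154.J.O4a

/-! Assembly of job 4. -/

namespace Vale.Agent.P154

theorem j4O : OutGood w4 0 1048576 0 1048576 16492674416640 35734127902720 := (OutGood.q
    (c := 1048576) (OutGood.l (OutGood.l (kt_of w4_ok j4o0.down (by decide +kernel)) (kt_of w4_ok
    j4o1.down (by decide +kernel))) (kt_of w4_ok j4o2.down (by decide +kernel))) (OutGood.p
    (c := 1048576) (OutGood.q (c := 524288) (OutGood.p (c := 524288) (kt_of w4_ok j4o3.down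
    (by decide +kernel)) (kt_of w4_ok j4o4.down (by decide +kernel)) rfl rfl) (OutGood.p
    (c := 524288) (kt_of w4_ok j4o5.down (by decide +kernel)) (OutGood.q (c := 262144) (OutGood.p
    (c := 262144) (kt_of w4_ok j4o6.down (by decide +kernel)) (OutGood.l (kt_of w4_ok j4o7.down
    (by decide +kernel)) (kt_of w4_ok j4o8.down (by decide +kernel))) rfl rfl) (OutGood.p
    (c := 262144) (kt_of w4_ok j4o9.down (by decide +kernel)) (kt_of w4_ok j4o10.down
    (by decide +kernel)) rfl rfl) rfl rfl) rfl rfl) rfl rfl) (OutGood.q (c := 524288) (OutGood.l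
    (OutGood.p (c := 524288) (kt_of w4_ok j4o11.down (by decide +kernel)) (OutGood.q (c := 262144)
    (kt_of w4_ok j4o12.down (by decide +kernel)) (OutGood.q (c := 131072) (kt_of w4_ok j4o13.down
    (by decide +kernel)) (kt_of w4_ok j4o14.down (by decide +kernel)) rfl rfl) rfl rfl) rfl rfl)
    (OutGood.p (c := 524288) (kt_of w4_ok j4o15.down (by decide +kernel)) (kt_of w4_ok j4o16.down
    (by decide +kernel)) rfl rfl)) (OutGood.p (c := 524288) (OutGood.q (c := 262144) (OutGood.l
    (OutGood.p (c := 262144) (kt_of w4_ok j4o17.down (by decide +kernel)) (kt_of w4_ok j4o18.down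
    (by decide +kernel)) rfl rfl) (kt_of w4_ok j4o19.down (by decide +kernel))) (OutGood.p
    (c := 262144) (kt_of w4_ok j4o20.down (by decide +kernel)) (OutGood.l (kt_of w4_ok j4o21.down
    (by decide +kernel)) (kt_of w4_ok j4o22.down (by decide +kernel))) rfl rfl) rfl rfl)
    (OutGood.q (c := 262144) (OutGood.l (OutGood.p (c := 262144) (kt_of w4_ok j4o23.down
    (by decide +kernel)) (OutGood.q (c := 131072) (kt_of w4_ok j4o24.down (by decide +kernel))
    (kt_of w4_ok j4o25.down (by decide +kernel)) rfl rfl) rfl rfl) (OutGood.p (c := 262144) (kt_of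
    w4_ok j4o26.down (by decide +kernel)) (kt_of w4_ok j4o27.down (by decide +kernel)) rfl rfl))
    (OutGood.p (c := 262144) (OutGood.q (c := 131072) (kt_of w4_ok j4o28.down (by decide +kernel))
    (OutGood.p (c := 131072) (kt_of w4_ok j4o29.down (by decide +kernel)) (kt_of w4_ok j4o30.down
    (by decide +kernel)) rfl rfl) rfl rfl) (OutGood.q (c := 131072) (OutGood.p (c := 131072)
    (kt_of w4_ok j4o31.down (by decide +kernel)) (kt_of w4_ok j4o32.down (by decide +kernel)) rfl
    rfl) (kt_of w4_ok j4o33.down (by decide +kernel)) rfl rfl) rfl rfl) rfl rfl) rfl rfl) rfl rfl)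
    rfl rfl) rfl rfl)

theorem j4G : JobG w4 1989091328 60 130 := jobG_of w4_sm j4O (cen1_of j4a0_0.down
    (by decide +kernel)) (cen1_of j4b0_0.down (by decide +kernel)) (cen2_of w4_sm j4c0.down
    (by decide +kernel)) (by decide +kernel)

theorem j4P0 : JobP 60 130 0 0 := jobP_of j4G _ j4t0.down
theorem j4P1 : JobP 60 130 6 6 := jobP_of j4G _ j4t1.down
theorem j4P2 : JobP 60 130 7 7 := jobP_of j4G _ j4t2.down

end Vale.Agent.P154
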