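import Vale.Agent.P154.AOf
import Vale.Agent.P154.J.C6
import Vale.Agent.P154.J.O6a

/-! Assembly of job 6. -/

namespace Vale.Agent.P154

theorem j6O : OutGood w6 0 1048576 0 1048576 54975581388800 82463372083200 := (OutGood.l
    (OutGood.q (c := 1048576) (kt_of w6_ok j6o0.down (by decide +kernel)) (OutGood.p
    (c := 1048576) (OutGood.q (c := 524288) (kt_of w6_ok j6o1.down (by decide +kernel)) (OutGood.p
    (c := 524288) (kt_of w6_ok j6o2.down (by decide +kernel)) (kt_of w6_ok j6o3.down
    (by decide +kernel)) rfl rfl) rfl rfl) (OutGood.q (c := 524288) (OutGood.p (c := 524288)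
    (kt_of w6_ok j6o4.down (by decide +kernel)) (kt_of w6_ok j6o5.down (by decide +kernel)) rfl
    rfl) (OutGood.p (c := 524288) (OutGood.q (c := 262144) (kt_of w6_ok j6o6.down
    (by decide +kernel)) (kt_of w6_ok j6o7.down (by decide +kernel)) rfl rfl) (OutGood.q
    (c := 262144) (kt_of w6_ok j6o8.down (by decide +kernel)) (OutGood.p (c := 262144) (OutGood.q
    (c := 131072) (kt_of w6_ok j6o9.down (by decide +kernel)) (kt_of w6_ok j6o10.down
    (by decide +kernel)) rfl rfl) (OutGood.q (c := 131072) (OutGood.p (c := 131072) (kt_of w6_ok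
    j6o11.down (by decide +kernel)) (kt_of w6_ok j6o12.down (by decide +kernel)) rfl rfl) (kt_of
    w6_ok j6o13.down (by decide +kernel)) rfl rfl) rfl rfl) rfl rfl) rfl rfl) rfl rfl) rfl rfl)
    rfl rfl) (OutGood.q (c := 1048576) (kt_of w6_ok j6o14.down (by decide +kernel)) (OutGood.p
    (c := 1048576) (OutGood.q (c := 524288) (kt_of w6_ok j6o15.down (by decide +kernel))
    (OutGood.p (c := 524288) (kt_of w6_ok j6o16.down (by decide +kernel)) (kt_of w6_ok j6o17.down
    (by decide +kernel)) rfl rfl) rfl rfl) (OutGood.q (c := 524288) (kt_of w6_ok j6o18.down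
    (by decide +kernel)) (OutGood.p (c := 524288) (kt_of w6_ok j6o19.down (by decide +kernel))
    (OutGood.q (c := 262144) (kt_of w6_ok j6o20.down (by decide +kernel)) (OutGood.p (c := 262144)
    (OutGood.q (c := 131072) (kt_of w6_ok j6o21.down (by decide +kernel)) (kt_of w6_ok j6o22.down
    (by decide +kernel)) rfl rfl) (OutGood.q (c := 131072) (kt_of w6_ok j6o23.down
    (by decide +kernel)) (kt_of w6_ok j6o24.down (by decide +kernel)) rfl rfl) rfl rfl) rfl rfl)
    rfl rfl) rfl rfl) rfl rfl) rfl rfl))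

theorem j6G : JobG w6 2169438208 200 300 := jobG_of w6_sm j6O (cen1_of j6a0_0.down
    (by decide +kernel)) (cen1_of j6b0_0.down (by decide +kernel)) (cen2_of w6_sm j6c0.down
    (by decide +kernel)) (by decide +kernel)

theorem j6P0 : JobP 200 300 0 0 := jobP_of j6G _ j6t0.down
theorem j6P1 : JobP 200 300 11 11 := jobP_of j6G _ j6t1.down
theorem j6P2 : JobP 200 300 12 12 := jobP_of j6G _ j6t2.down
theorem j6P3 : JobP 200 300 13 13 := jobP_of j6G _ j6t3.down
theorem j6P4 : JobP 200 300 14 14 := jobP_of j6G _ j6t4.down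
theorem j6P5 : JobP 200 300 15 15 := jobP_of j6G _ j6t5.down
theorem j6P6 : JobP 200 300 16 16 := jobP_of j6G _ j6t6.down
theorem j6P7 : JobP 200 300 17 17 := jobP_of j6G _ j6t7.down
theorem j6P8 : JobP 200 300 18 18 := jobP_of j6G _ j6t8.down
theorem j6P9 : JobP 200 300 19 19 := jobP_of j6G _ j6t9.down
theorem j6P10 : JobP 200 300 20 20 := jobP_of j6G _ j6t10.down
theorem j6P11 : JobP 200 300 21 21 := jobP_of j6G _ j6t11.down
theorem j6P12 : JobP 200 300 22 22 := jobP_of j6G _ j6t12.down
theorem j6P13 : JobP 200 300 23 23 := jobP_of j6G _ j6t13.down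

end Vale.Agent.P154
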