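import Vale.Agent.P154.AOf
import Vale.Agent.P154.J.C7
import Vale.Agent.P154.J.O7a

/-! Assembly of job 7. -/

namespace Vale.Agent.P154

theorem j7O : OutGood w7 0 1048576 0 1048576 82463372083200 109951162777600 := (OutGood.q
    (c := 1048576) (kt_of w7_ok j7o0.down (by decide +kernel)) (OutGood.p (c := 1048576)
    (OutGood.q (c := 524288) (kt_of w7_ok j7o1.down (by decide +kernel)) (kt_of w7_ok j7o2.down
    (by decide +kernel)) rfl rfl) (OutGood.q (c := 524288) (kt_of w7_ok j7o3.down
    (by decide +kernel)) (OutGood.p (c := 524288) (kt_of w7_ok j7o4.down (by decide +kernel))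
    (OutGood.q (c := 262144) (kt_of w7_ok j7o5.down (by decide +kernel)) (OutGood.p (c := 262144)
    (OutGood.q (c := 131072) (kt_of w7_ok j7o6.down (by decide +kernel)) (kt_of w7_ok j7o7.down
    (by decide +kernel)) rfl rfl) (OutGood.q (c := 131072) (OutGood.p (c := 131072) (kt_of w7_ok
    j7o8.down (by decide +kernel)) (kt_of w7_ok j7o9.down (by decide +kernel)) rfl rfl) (kt_of
    w7_ok j7o10.down (by decide +kernel)) rfl rfl) rfl rfl) rfl rfl) rfl rfl) rfl rfl) rfl rfl)
    rfl rfl)

theorem j7G : JobG w7 2308198400 300 400 := jobG_of w7_sm j7O (cen1_of j7a0_0.down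
    (by decide +kernel)) (cen1_of j7b0_0.down (by decide +kernel)) (cen2_of w7_sm j7c0.down
    (by decide +kernel)) (by decide +kernel)

theorem j7P0 : JobP 300 400 0 0 := jobP_of j7G _ j7t0.down
theorem j7P1 : JobP 300 400 83 66 := jobP_of j7G _ j7t1.down
theorem j7P2 : JobP 300 400 65 55 := jobP_of j7G _ j7t2.down
theorem j7P3 : JobP 300 400 54 47 := jobP_of j7G _ j7t3.down
theorem j7P4 : JobP 300 400 46 41 := jobP_of j7G _ j7t4.down
theorem j7P5 : JobP 300 400 40 36 := jobP_of j7G _ j7t5.down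
theorem j7P6 : JobP 300 400 35 32 := jobP_of j7G _ j7t6.down
theorem j7P7 : JobP 300 400 31 29 := jobP_of j7G _ j7t7.down
theorem j7P8 : JobP 300 400 28 26 := jobP_of j7G _ j7t8.down
theorem j7P9 : JobP 300 400 25 24 := jobP_of j7G _ j7t9.down

end Vale.Agent.P154
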