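import Vale.Agent.P154.AOf
import Vale.Agent.P154.J.C8
import Vale.Agent.P154.J.O8a

/-! Assembly of job 8. -/

namespace Vale.Agent.P154

theorem j8O : OutGood w8 0 1048576 0 1048576 109951162777600 143486267424768 := (OutGood.q
    (c := 1048576) (kt_of w8_ok j8o0.down (by decide +kernel)) (OutGood.p (c := 1048576)
    (OutGood.q (c := 524288) (kt_of w8_ok j8o1.down (by decide +kernel)) (OutGood.p (c := 524288)
    (kt_of w8_ok j8o2.down (by decide +kernel)) (kt_of w8_ok j8o3.down (by decide +kernel)) rfl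
    rfl) rfl rfl) (OutGood.q (c := 524288) (kt_of w8_ok j8o4.down (by decide +kernel)) (OutGood.p
    (c := 524288) (kt_of w8_ok j8o5.down (by decide +kernel)) (OutGood.q (c := 262144) (kt_of
    w8_ok j8o6.down (by decide +kernel)) (OutGood.p (c := 262144) (OutGood.q (c := 131072) (kt_of
    w8_ok j8o7.down (by decide +kernel)) (kt_of w8_ok j8o8.down (by decide +kernel)) rfl rfl)
    (OutGood.q (c := 131072) (OutGood.p (c := 131072) (kt_of w8_ok j8o9.down (by decide +kernel))
    (kt_of w8_ok j8o10.down (by decide +kernel)) rfl rfl) (kt_of w8_ok j8o11.down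
    (by decide +kernel)) rfl rfl) rfl rfl) rfl rfl) rfl rfl) rfl rfl) rfl rfl) rfl rfl)

theorem j8G : JobG w8 2305638400 400 522 := jobG_of w8_sm j8O (cen1_of j8a0_0.down
    (by decide +kernel)) (cen1_of j8b0_0.down (by decide +kernel)) (cen2_of w8_sm j8c0.down
    (by decide +kernel)) (by decide +kernel)

theorem j8P0 : JobP 400 522 0 0 := jobP_of j8G _ j8t0.down
theorem j8P1 : JobP 400 522 0 400 := jobP_of j8G _ j8t1.down
theorem j8P2 : JobP 400 522 399 200 := jobP_of j8G _ j8t2.down
theorem j8P3 : JobP 400 522 199 133 := jobP_of j8G _ j8t3.down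
theorem j8P4 : JobP 400 522 132 100 := jobP_of j8G _ j8t4.down
theorem j8P5 : JobP 400 522 99 84 := jobP_of j8G _ j8t5.down

end Vale.Agent.P154
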