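import Vale.Agent.P154.J.G1
import Vale.Agent.P154.J.G2
import Vale.Agent.P154.J.G3
import Vale.Agent.P154.J.G4
import Vale.Agent.P154.J.G5
import Vale.Agent.P154.J.G6
import Vale.Agent.P154.J.G7
import Vale.Agent.P154.J.G8

/-! All jobs together. -/

namespace Vale.Agent.P154

theorem poi_all : PoiP 0 522 := (PoiP.join (PoiP.join (PoiP.join (PoiP.join (PoiP.join (PoiP.join
    (poiP_of j2P0) (poiP_of j3P0)) (poiP_of j4P0)) (poiP_of j5P0)) (poiP_of j6P0)) (poiP_of j7P0))
    (poiP_of j8P0))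

theorem reg_all : RegI 4 := (RegP.joinI (regP_of j1P0 4 4 (by decide +kernel)) (RegP.joinI
    (regP_of j3P1 5 5 (by decide +kernel)) (RegP.joinI (regP_of j4P1 6 6 (by decide +kernel))
    (RegP.joinI (regP_of j4P2 7 7 (by decide +kernel)) (RegP.joinI (regP_of j5P1 8 8
    (by decide +kernel)) (RegP.joinI (regP_of j5P2 9 9 (by decide +kernel)) (RegP.joinI (regP_of
    j5P3 10 10 (by decide +kernel)) (RegP.joinI (regP_of j6P1 11 11 (by decide +kernel))
    (RegP.joinI (regP_of j6P2 12 12 (by decide +kernel)) (RegP.joinI (regP_of j6P3 13 13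
    (by decide +kernel)) (RegP.joinI (regP_of j6P4 14 14 (by decide +kernel)) (RegP.joinI (regP_of
    j6P5 15 15 (by decide +kernel)) (RegP.joinI (regP_of j6P6 16 16 (by decide +kernel))
    (RegP.joinI (regP_of j6P7 17 17 (by decide +kernel)) (RegP.joinI (regP_of j6P8 18 18
    (by decide +kernel)) (RegP.joinI (regP_of j6P9 19 19 (by decide +kernel)) (RegP.joinI (regP_of
    j6P10 20 20 (by decide +kernel)) (RegP.joinI (regP_of j6P11 21 21 (by decide +kernel))
    (RegP.joinI (regP_of j6P12 22 22 (by decide +kernel)) (RegP.joinI (regP_of j6P13 23 23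
    (by decide +kernel)) (RegP.joinI (regP_of j7P9 24 25 (by decide +kernel)) (RegP.joinI (regP_of
    j7P8 26 28 (by decide +kernel)) (RegP.joinI (regP_of j7P7 29 31 (by decide +kernel))
    (RegP.joinI (regP_of j7P6 32 35 (by decide +kernel)) (RegP.joinI (regP_of j7P5 36 40
    (by decide +kernel)) (RegP.joinI (regP_of j7P4 41 46 (by decide +kernel)) (RegP.joinI (regP_of
    j7P3 47 54 (by decide +kernel)) (RegP.joinI (regP_of j7P2 55 65 (by decide +kernel))
    (RegP.joinI (regP_of j7P1 66 83 (by decide +kernel)) (RegP.joinI (regP_of j8P5 84 99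
    (by decide +kernel)) (RegP.joinI (regP_of j8P4 100 132 (by decide +kernel)) (RegP.joinI
    (regP_of j8P3 133 199 (by decide +kernel)) (RegP.joinI (regP_of j8P2 200 399
    (by decide +kernel)) (regI_of j8P1 400 (by decide +kernel)) rfl) rfl) rfl) rfl) rfl) rfl) rfl)
    rfl) rfl) rfl) rfl) rfl) rfl) rfl) rfl) rfl) rfl) rfl) rfl) rfl) rfl) rfl) rfl) rfl) rfl) rfl)
    rfl) rfl) rfl) rfl) rfl) rfl) rfl)

end Vale.Agent.P154
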