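import Vale.Agent.P154.AOf
import Vale.Agent.P154.J.C1
import Vale.Agent.P154.J.O1a

/-! Assembly of job 1. -/

namespace Vale.Agent.P154

theorem j1O : OutGood w1 0 1048576 0 1048576 0 0 := (OutGood.q (c := 1048576) (OutGood.q
    (c := 524288) (OutGood.q (c := 262144) (OutGood.q (c := 131072) (OutGood.q (c := 65536) (kt_of
    w1_ok j1o0.down (by decide +kernel)) (kt_of w1_ok j1o1.down (by decide +kernel)) rfl rfl)
    (kt_of w1_ok j1o2.down (by decide +kernel)) rfl rfl) (OutGood.p (c := 1048576) (kt_of w1_ok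
    j1o3.down (by decide +kernel)) (kt_of w1_ok j1o4.down (by decide +kernel)) rfl rfl) rfl rfl)
    (OutGood.p (c := 1048576) (OutGood.q (c := 262144) (kt_of w1_ok j1o5.down (by decide +kernel))
    (kt_of w1_ok j1o6.down (by decide +kernel)) rfl rfl) (OutGood.q (c := 262144) (kt_of w1_ok
    j1o7.down (by decide +kernel)) (OutGood.p (c := 524288) (kt_of w1_ok j1o8.down
    (by decide +kernel)) (kt_of w1_ok j1o9.down (by decide +kernel)) rfl rfl) rfl rfl) rfl rfl)
    rfl rfl) (OutGood.p (c := 1048576) (OutGood.q (c := 524288) (OutGood.q (c := 262144)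
    (OutGood.p (c := 524288) (kt_of w1_ok j1o10.down (by decide +kernel)) (kt_of w1_ok j1o11.down
    (by decide +kernel)) rfl rfl) (OutGood.p (c := 524288) (kt_of w1_ok j1o12.down
    (by decide +kernel)) (kt_of w1_ok j1o13.down (by decide +kernel)) rfl rfl) rfl rfl) (OutGood.p
    (c := 524288) (OutGood.p (c := 262144) (OutGood.q (c := 262144) (kt_of w1_ok j1o14.down
    (by decide +kernel)) (OutGood.p (c := 131072) (kt_of w1_ok j1o15.down (by decide +kernel))
    (kt_of w1_ok j1o16.down (by decide +kernel)) rfl rfl) rfl rfl) (kt_of w1_ok j1o17.down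
    (by decide +kernel)) rfl rfl) (OutGood.p (c := 262144) (kt_of w1_ok j1o18.down
    (by decide +kernel)) (kt_of w1_ok j1o19.down (by decide +kernel)) rfl rfl) rfl rfl) rfl rfl)
    (OutGood.p (c := 524288) (OutGood.q (c := 524288) (kt_of w1_ok j1o20.down (by decide +kernel))
    (OutGood.q (c := 262144) (kt_of w1_ok j1o21.down (by decide +kernel)) (OutGood.p (c := 262144)
    (kt_of w1_ok j1o22.down (by decide +kernel)) (kt_of w1_ok j1o23.down (by decide +kernel)) rfl
    rfl) rfl rfl) rfl rfl) (OutGood.q (c := 524288) (kt_of w1_ok j1o24.down (by decide +kernel))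
    (OutGood.q (c := 262144) (kt_of w1_ok j1o25.down (by decide +kernel)) (OutGood.p (c := 262144)
    (OutGood.q (c := 131072) (kt_of w1_ok j1o26.down (by decide +kernel)) (kt_of w1_ok j1o27.down
    (by decide +kernel)) rfl rfl) (OutGood.q (c := 131072) (kt_of w1_ok j1o28.down
    (by decide +kernel)) (kt_of w1_ok j1o29.down (by decide +kernel)) rfl rfl) rfl rfl) rfl rfl)
    rfl rfl) rfl rfl) rfl rfl) rfl rfl)

theorem j1G : JobG w1 1939283968 0 0 := jobG_of w1_sm j1O (cen1_of j1a0_0.down
    (by decide +kernel)) (cen1_of j1b0_0.down (by decide +kernel)) (cen2_of w1_sm j1c0.down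
    (by decide +kernel)) (by decide +kernel)

theorem j1P0 : JobP 0 0 4 4 := jobP_of j1G _ j1t0.down

end Vale.Agent.P154
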